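import Mathlib.Analysis.Complex.AbsMax
import Mathlib.Analysis.Complex.CauchyIntegral
import Mathlib.Analysis.Complex.Convex
import Mathlib.Analysis.Analytic.Uniqueness
import Mathlib.Analysis.Convex.Topology

/-!
# Case I endgame, core

A holomorphic function on a symmetric horizontal strip which is periodic with period one,
symmetric under complex conjugation and even about one point of the upper half of the strip
is constant.
-/

namespace Vale.Agent.P097.H818

open Complex Set Filter Topology Metric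

open scoped ComplexConjugate

/-- the strip of half width `H` -/
def St (H : ℝ) : Set ℂ := {z | |z.im| < H}

theorem isOpen_St (H : ℝ) : IsOpen (St H) :=
  isOpen_lt (continuous_abs.comp Complex.continuous_im) continuous_const

theorem convex_St (H : ℝ) : Convex ℝ (St H) := by
  have : St H = {z : ℂ | -H < z.im} ∩ {z : ℂ | z.im < H} := by
    ext z; simp [St, abs_lt]
  rw [this]
  exact (convex_halfSpace_im_gt _).inter (convex_halfSpace_im_lt _)

/-- interior maximum on a smaller strip forces constancy on the whole strip -/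
theorem const_of_max {q : ℂ → ℂ} {H a : ℝ} (ha : a ≤ H)
    (hq : DifferentiableOn ℂ q (St H)) {z1 : ℂ} (hz1 : z1 ∈ St a)
    (hmax : ∀ z ∈ St a, ‖q z‖ ≤ ‖q z1‖) : ∀ z ∈ St H, q z = q z1 := by
  have hsub : St a ⊆ St H := fun z hz => lt_of_lt_of_le hz ha
  have h1 : EqOn q (Function.const ℂ (q z1)) (St a) := by
    apply Complex.eqOn_of_isPreconnected_of_isMaxOn_norm (convex_St a).isPreconnected
      (isOpen_St a) (hq.mono hsub) hz1
    intro z hz
    exact hmax z hz
  have h2 : EqOn q (Function.const ℂ (q z1)) (St H) := by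
    apply (hq.analyticOnNhd (isOpen_St H)).eqOn_of_preconnected_of_eventuallyEq
      analyticOnNhd_const (convex_St H).isPreconnected (hsub hz1)
    filter_upwards [(isOpen_St a).mem_nhds hz1] with z hz
    exact h1 hz
  exact fun z hz => h2 hz

theorem even_on {q : ℂ → ℂ} {H : ℝ} {z0 : ℂ}
    (hq : DifferentiableOn ℂ q (St H)) (h0 : 0 < z0.im) (h0H : z0.im < H)
    (heven : ∀ᶠ z in 𝓝 z0, q (2 * z0 - z) = q z) :
    ∀ z, 2 * z0.im - H < z.im → z.im < H → q (2 * z0 - z) = q z := by
  set T : Set ℂ := {z : ℂ | 2 * z0.im - H < z.im} ∩ {z : ℂ | z.im < H} with hT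
  have hTo : IsOpen T := (isOpen_lt continuous_const Complex.continuous_im).inter
    (isOpen_lt Complex.continuous_im continuous_const)
  have hTc : Convex ℝ T := (convex_halfSpace_im_gt _).inter (convex_halfSpace_im_lt _)
  have hTs : T ⊆ St H := by
    rintro z ⟨h1, h2⟩
    simp only [mem_ofPred_eq] at h1 h2
    exact abs_lt.2 ⟨by linarith, h2⟩
  have him : ∀ z : ℂ, (2 * z0 - z).im = 2 * z0.im - z.im := by
    intro z; simp
  have hTs' : MapsTo (fun z => 2 * z0 - z) T (St H) := by
    rintro z ⟨h1, h2⟩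
    simp only [mem_ofPred_eq] at h1 h2
    show |(2 * z0 - z).im| < H
    rw [him]
    exact abs_lt.2 ⟨by linarith, by linarith⟩
  have hA : AnalyticOnNhd ℂ (fun z => q (2 * z0 - z)) T := by
    apply DifferentiableOn.analyticOnNhd _ hTo
    exact hq.comp ((differentiable_const _).sub differentiable_id).differentiableOn hTs'
  have hB : AnalyticOnNhd ℂ q T := (hq.mono hTs).analyticOnNhd hTo
  have hz0 : z0 ∈ T := ⟨by simp only [mem_ofPred_eq]; linarith, h0H⟩
  have := hA.eqOn_of_preconnected_of_eventuallyEq hB hTc.isPreconnected hz0 heven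
  exact fun z h1 h2 => this ⟨h1, h2⟩

/-- **Case I core.** -/
theorem endI_core {q : ℂ → ℂ} {H : ℝ} {z0 : ℂ}
    (hq : DifferentiableOn ℂ q (St H))
    (hper : ∀ z ∈ St H, q (z + 1) = q z)
    (hreal : ∀ z ∈ St H, q (conj z) = conj (q z))
    (h0 : 0 < z0.im) (h0H : z0.im < H)
    (heven : ∀ᶠ z in 𝓝 z0, q (2 * z0 - z) = q z) :
    ∀ z ∈ St H, ∀ w ∈ St H, q z = q w := by
  classical
  set h := z0.im with hh
  obtain ⟨a, ha1, ha2⟩ : ∃ a, max 0 (2 * h - H) < a ∧ a < h :=
    exists_between (max_lt h0 (by linarith))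
  have ha0 : 0 < a := lt_of_le_of_lt (le_max_left _ _) ha1
  have haH : 2 * h - H < a := lt_of_le_of_lt (le_max_right _ _) ha1
  set b := 2 * h - a with hb
  have hbH : b < H := by linarith
  have hab : a < b := by linarith
  have hb0 : 0 < b := by linarith
  -- the compact rectangle
  have hmemSt : ∀ z : ℂ, |z.im| ≤ b → z ∈ St H := fun z hz => lt_of_le_of_lt hz hbH
  set K : Set ℂ := (Icc (0:ℝ) 1) ×ℂ (Icc (-b) b) with hK
  have hKc : IsCompact K := isCompact_Icc.reProdIm isCompact_Icc
  have hKne : K.Nonempty := ⟨0, by simp [hK, Complex.mem_reProdIm, hb0.le]⟩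
  have hKs : K ⊆ St H := by
    intro z hz
    rw [hK, Complex.mem_reProdIm] at hz
    exact hmemSt z (abs_le.2 ⟨hz.2.1, hz.2.2⟩)
  obtain ⟨z1, hz1, hz1max⟩ := hKc.exists_isMaxOn hKne
    ((hq.continuousOn.mono hKs).norm)
  -- periodicity, integer translates
  have hperN : ∀ (n : ℤ) (z : ℂ), z ∈ St H → q (z + n) = q z := by
    intro n
    have hst : ∀ (n : ℤ) (z : ℂ), z ∈ St H → z + n ∈ St H := by
      intro n z hz; simpa [St] using hz
    induction n using Int.induction_on with
    | zero => intro z _; simp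
    | succ n ih =>
      intro z hz
      have h1 := hper (z + n) (by simpa [St] using hz)
      have : z + ((n : ℤ) + 1 : ℤ) = z + (n : ℂ) + 1 := by push_cast; ring
      rw [this, h1]
      simpa using ih z hz
    | pred n ih =>
      intro z hz
      have h1 := hper (z + ((-(n:ℤ) - 1 : ℤ) : ℂ)) (hst _ _ hz)
      have h2 : z + ((-(n:ℤ) - 1 : ℤ) : ℂ) + 1 = z + ((-(n:ℤ) : ℤ) : ℂ) := by
        push_cast; ring
      rw [h2] at h1
      rw [← h1]
      exact ih z hz
  have hmax : ∀ z : ℂ, |z.im| ≤ b → ‖q z‖ ≤ ‖q z1‖ := by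
    intro z hz
    have h1 := hperN (-⌊z.re⌋) z (hmemSt z hz)
    rw [← h1]
    apply hz1max
    rw [hK, Complex.mem_reProdIm]
    have hre : (z + ((-⌊z.re⌋ : ℤ) : ℂ)).re = Int.fract z.re := by
      rw [Complex.add_re, Complex.intCast_re]
      push_cast
      rw [Int.fract]; ring
    have him : (z + ((-⌊z.re⌋ : ℤ) : ℂ)).im = z.im := by
      rw [Complex.add_im, Complex.intCast_im]; ring
    refine ⟨?_, ?_⟩
    · rw [hre]; exact ⟨Int.fract_nonneg _, (Int.fract_lt_one _).le⟩
    · rw [him]; exact abs_le.1 hz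
  have hz1' : |z1.im| ≤ b := by
    rw [hK, Complex.mem_reProdIm] at hz1
    exact abs_le.2 hz1.2
  -- it suffices to find a maximum point in the open strip of half width b
  suffices hs : ∃ z2 ∈ St b, ‖q z1‖ ≤ ‖q z2‖ by
    obtain ⟨z2, hz2, hle⟩ := hs
    have := const_of_max hbH.le hq hz2 (fun z hz => (hmax z (le_of_lt hz)).trans hle)
    intro z hz w hw
    rw [this z hz, this w hw]
  rcases lt_or_eq_of_le hz1' with hlt | heq
  · exact ⟨z1, hlt, le_rfl⟩
  · -- move the maximum point to the upper boundary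
    obtain ⟨z3, hz3, hz3n⟩ : ∃ z3 : ℂ, z3.im = b ∧ ‖q z3‖ = ‖q z1‖ := by
      rcases abs_eq hb0.le |>.1 heq with h | h
      · exact ⟨z1, h, rfl⟩
      · refine ⟨conj z1, by simp [h], ?_⟩
        rw [hreal z1 (hmemSt z1 hz1'), Complex.norm_conj]
    have h3 := even_on hq h0 h0H heven z3 (by rw [hz3]; linarith) (by rw [hz3]; exact hbH)
    refine ⟨2 * z0 - z3, ?_, ?_⟩
    · have : (2 * z0 - z3).im = a := by
        simp [hz3, hb]
        rw [← hh]; ring
      show |(2 * z0 - z3).im| < b
      rw [this, abs_of_pos ha0]; exact hab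
    · rw [h3, hz3n]

end Vale.Agent.P097.H818
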